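import Vale.Agent.P252.MathlibUsed
import Vale.Agent.P252.Defs
import Vale.Agent.P252.BernsteinDefs
import Vale.Agent.P252.R.Final
import Vale.Agent.P252.R.Main

open scoped ContDiff
open Vale.Agent.P252

namespace Vale.Agent.Results.P252.BernsteinTheorem

/-- The affine Bernstein problem in every dimension `n ≥ 2`: the assertion (every smooth, locally
uniformly convex, Euclidean complete affine maximal graph over an open convex domain is an elliptic
paraboloid) is true if and only if `n ≤ 9`; the same holds for its entire-graph form (every smooth
locally uniformly convex affine maximal function on `ℝⁿ` is a quadratic polynomial). -/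
theorem result :
    (∀ n : ℕ, 2 ≤ n → (AffineBernstein n ↔ n ≤ 9)) ∧
    (∀ n : ℕ, 2 ≤ n →
      ((∀ u : EuclideanSpace ℝ (Fin n) → ℝ, ContDiff ℝ ∞ u → (∀ x, (hess u x).PosDef) →
        AffineMaximalOn Set.univ u → IsQuadratic u) ↔ n ≤ 9)) :=
  R.final_of R.affineBernstein

end Vale.Agent.Results.P252.BernsteinTheorem
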